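import Vale.Agent.P207.N3.Spec
import Vale.Agent.P207.N3.H790.NF

/-!
# P207, line N3: common vocabulary of the packages P10 - P17 (over the interface `Leaf`)

* `Orb L` : a closed orbit (an element `β` of the group with a frame on its axis);
* `NF`, `Nor` : normal forms of the plane, normal coordinate of `U_{β^-}` (1.4);
* `DirOn`, `SmDir` : `E^s(df, ·)` is `C^k`;
* `Rough` : the rough alternative (1.3);
* `LevForm` : `E^s = V + b(f) (∇^⊥ f)²` on a whole leaf (4.2), `Ty`, `Typed` : the types F, S, E;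
* `LL`, `GoodLev` : the conclusion of the level lemma (4.3).
-/

open Set Filter Topology Metric MeasureTheory
open scoped ContDiff

noncomputable section

namespace Vale.Agent.P207.N3

variable {Γ X B : Type} [Group Γ] [MetricSpace X] [ProperSpace X] [MulAction Γ X]
  [IsIsometricSMul Γ X] [TopologicalSpace B] [CompactSpace B] [T2Space B] [MulAction Γ B]
  [ContinuousConstSMul Γ B]

/-! ### Closed orbits -/

/-- A closed orbit: `β • x = φ_l (rot a x)`; `β^- = em x`, `β^+ = ep x`. -/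
structure Orb (L : Leaf Γ X B) where
  β : Γ
  x : X
  l : ℝ
  a : O2
  ax : L.IsAxis β x l a

namespace Orb

variable {L : Leaf Γ X B}

/-- the repelling end `β^-` -/
def neg (o : Orb L) : B := L.em o.x

/-- the attracting end `β^+` -/
def pos (o : Orb L) : B := L.ep o.x

/-- the contraction `(e x)⁻¹ ∘ β ∘ e x` of the unit disc, `0 ↦ 0` -/
def ret (o : Orb L) : E2 → E2 := L.τ (o.β • o.x) o.x

end Orb

/-! ### Normal forms -/

namespace H790.NF

/-- larger modulus of the eigenvalues, `e^{λ₁ l}` -/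
def m1 : NF → ℝ
  | tri μ₁ _ _ _ => |μ₁|
  | cx c s => Real.sqrt (c ^ 2 + s ^ 2)

/-- smaller modulus of the eigenvalues, `e^{λ₂ l}` -/
def m2 : NF → ℝ
  | tri _ μ₂ _ _ => |μ₂|
  | cx c s => Real.sqrt (c ^ 2 + s ^ 2)

/-- `r = λ₁ / λ₂ > 1` -/
def Split (N : NF) : Prop := N.m2 < N.m1

end H790.NF

open H790 (NF)

/-- The normal coordinate of a closed orbit: a global coordinate of `U_{β^-}` (1.4). -/
structure Nor (L : Leaf Γ X B) (o : Orb L) where
  N : NF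
  ok : N.OK
  x : B → E2
  base : x o.pos = 0
  equiv : ∀ η, η ≠ o.neg → x (o.β⁻¹ • η) = N.fn (x η)
  smooth : L.SmoothOn o.neg x
  inv : E2 → B
  inv_cont : Continuous inv
  inv_ne : ∀ z, inv z ≠ o.neg
  inv_right : ∀ z, x (inv z) = z
  inv_left : ∀ η, η ≠ o.neg → inv (x η) = η
  deriv : ∀ y, L.em y = o.neg → ∀ u ∈ ball (0 : E2) 3,
    (fderiv ℝ (fun u => x (L.e y u)) u).det ≠ 0

namespace Nor

variable {L : Leaf Γ X B} {o : Orb L}

/-- the Lyapunov exponents -/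
def lam1 (n : Nor L o) : ℝ := Real.log n.N.m1 / o.l
def lam2 (n : Nor L o) : ℝ := Real.log n.N.m2 / o.l

end Nor

/-! ### `E^s(df, ·)` is smooth -/

/-- `f` is `C^k` and `E^s(df, ·)` is `C^k` on the open piece `O` of the disc `e y` -/
def DirOn {L : Leaf Γ X B} (T : Tens L) (k : ℕ∞) (y : X) (O : Set E2) (f : E2 → ℝ) : Prop :=
  ContDiffOn ℝ k f O ∧ ContDiffOn ℝ k (fun u => T.N y u (gradient f u)) O

/-- `E^s(df, ·)` is smooth along the whole leaf `U_ξ` -/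
def SmDir {L : Leaf Γ X B} (T : Tens L) (ξ : B) (f : B → ℝ) : Prop :=
  ∀ y, L.em y = ξ → DirOn T ⊤ y (ball 0 3) (fun u => f (L.e y u))

/-- The rough alternative: `E^s` is not `C^{k₀}` on any open piece of any unstable leaf. -/
def Rough {L : Leaf Γ X B} (T : Tens L) (k₀ : ℕ) : Prop :=
  ∀ y : X, ∀ O : Set E2, IsOpen O → O ⊆ ball 0 3 → O.Nonempty → ¬ ContDiffOn ℝ k₀ (T.N y) O

/-- The smooth alternative: `E^s` is smooth along all unstable leaves, all derivatives are jointly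
continuous. -/
def SmoothAlt {L : Leaf Γ X B} (T : Tens L) : Prop :=
  (∀ y : X, ContDiffOn ℝ ∞ (T.N y) (ball 0 3)) ∧
    ∀ k : ℕ, ContinuousOn (fun p : X × E2 => iteratedFDeriv ℝ k (T.N p.1) p.2) (univ ×ˢ ball 0 3)

/-- (P11, 3.5) the dichotomy -/
def Dichotomy {L : Leaf Γ X B} (T : Tens L) : Prop :=
  SmoothAlt T ∨ ∃ k₀, Rough T k₀

/-- (P13, 4.1) the start -/
def Start {L : Leaf Γ X B} (T : Tens L) (k : ℕ) : Prop :=
  ∃ (y : X) (O : Set E2) (f : E2 → ℝ), IsOpen O ∧ O ⊆ ball 0 3 ∧ O.Nonempty ∧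
    (∀ u ∈ O, gradient f u ≠ 0) ∧ DirOn T k y O f

/-! ### Level functions -/

/-- rotation by a right angle -/
def J (v : E2) : E2 := !₂[-(v 1), v 0]

/-- `∇^⊥ f` in the disc `e y`, for the area `σ_ξ = e^{-h lv y} s y du`, `ξ = em y` -/
def perp {L : Leaf Γ X B} [MeasurableSpace B] [BorelSpace B] (A : Area L) (y : X) (f : B → ℝ)
    (u : E2) : E2 :=
  (Real.exp (A.h * L.lv y) / A.s y u) • J (gradient (fun u => f (L.e y u)) u)

/-- A function `f` on the leaf `U_{ζ^-}` which is multiplied by `± e^{χ l}` under `ζ⁻¹`, is a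
coordinate of a global chart and satisfies `E^s = V + b(f) (∇^⊥ f)²`, `b` nowhere `C^{k₀}`. -/
structure LevForm {L : Leaf Γ X B} [MeasurableSpace B] [BorelSpace B] (A : Area L) (T : Tens L)
    (k₀ : ℕ) (o : Orb L) where
  n : Nor L o
  /-- `f` is a coordinate of `n` -/
  i : Fin 2
  χ : ℝ
  ε : ℝ
  ε_abs : |ε| = 1
  equiv : ∀ η, η ≠ o.neg → n.x (o.β⁻¹ • η) i = ε * Real.exp (χ * o.l) * n.x η i
  b : ℝ → ℝ
  b_cont : Continuous b
  b_rough : ∀ I : Set ℝ, IsOpen I → I.Nonempty → ¬ ContDiffOn ℝ k₀ b I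
  b_equiv : ∃ P : Polynomial ℝ, ∀ s,
    b (ε * Real.exp (χ * o.l) * s) = Real.exp ((2 * A.h - 2 * χ) * o.l) * b s + P.eval s
  V : X → E2 → E2 →L[ℝ] E2
  V_smooth : ∀ y, L.em y = o.neg → ContDiffOn ℝ ∞ (V y) (ball 0 3)
  form : ∀ y, L.em y = o.neg → ∀ u ∈ ball (0 : E2) 3, ∀ v,
    T.N y u v = V y u v + (b (n.x (L.e y u) i) * inner ℝ (perp A y (fun η => n.x η i) u) v) •
      perp A y (fun η => n.x η i) u

namespace LevForm

variable {L : Leaf Γ X B} [MeasurableSpace B] [BorelSpace B] {A : Area L} {T : Tens L} {k₀ : ℕ}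
  {o : Orb L}

/-- the level function -/
def f (t : LevForm A T k₀ o) (η : B) : ℝ := t.n.x η t.i

/-- type F: `r > 1`, `f = x₂`, `χ = λ₂` -/
def IsF (t : LevForm A T k₀ o) : Prop :=
  t.n.N.Split ∧ t.i = 1 ∧ t.χ = t.n.lam2

/-- type S: `r > 1`, linear diagonal, `f = x₁`, `χ = λ₁` -/
def IsS (t : LevForm A T k₀ o) : Prop :=
  t.n.N.Split ∧ (∃ μ₁ μ₂ k, t.n.N = .tri μ₁ μ₂ 0 k) ∧ t.i = 0 ∧ t.χ = t.n.lam1

/-- type E, scalar: `f = x₂`, `χ = h / 2` -/
def IsC (t : LevForm A T k₀ o) : Prop :=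
  (∃ μ k, t.n.N = .tri μ μ 0 k) ∧ t.i = 1 ∧ t.χ = A.h / 2

/-- type E, Jordan block: `f = x₂`, `χ = h / 2` -/
def IsJ (t : LevForm A T k₀ o) : Prop :=
  (∃ μ a, a ≠ 0 ∧ t.n.N = .tri μ μ a 1) ∧ t.i = 1 ∧ t.χ = A.h / 2

end LevForm

/-- The exact statement of the level lemma at the point `ep y` of the leaf `U_ξ`, `ξ = em y`:
`c e^{-χt} ≤ sup_{B_t} |f - f(ep y)| ≤ C e^{-χt}`. -/
def LL (L : Leaf Γ X B) (f : B → ℝ) (χ : ℝ) (y : X) : Prop :=
  ∃ c > 0, ∃ C : ℝ, ∀ t ≥ (0 : ℝ),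
    (∀ u ∈ closedBall (0 : E2) 1,
      |f (L.e (L.φ t y) u) - f (L.ep y)| ≤ C * Real.exp (-χ * t)) ∧
    ∃ u ∈ closedBall (0 : E2) 1,
      c * Real.exp (-χ * t) ≤ |f (L.e (L.φ t y) u) - f (L.ep y)|

/-- `s₀` is a value of `f` at which the level lemma holds with rate `χ` -/
def GoodLev (L : Leaf Γ X B) (ξ : B) (f : B → ℝ) (χ s₀ : ℝ) : Prop :=
  ∀ y, L.em y = ξ → f (L.ep y) = s₀ → LL L f χ y

/-- a closed orbit (of the set of orbits which have a level form) with its level form -/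
structure Typed {L : Leaf Γ X B} [MeasurableSpace B] [BorelSpace B] (A : Area L) (T : Tens L)
    (k₀ : ℕ) where
  o : Orb L
  t : LevForm A T k₀ o
  type : t.IsF ∨ t.IsS ∨ t.IsC ∨ t.IsJ

/-- (P13T, 4.2) every closed orbit (or its square) has a type -/
def Types {L : Leaf Γ X B} [MeasurableSpace B] [BorelSpace B] (A : Area L) (T : Tens L)
    (k₀ : ℕ) : Prop :=
  ∀ o : Orb L, ∃ p : Typed A T k₀, (p.o.β = o.β ∨ p.o.β = o.β * o.β) ∧ p.o.x = o.x

/-- (P14, 4.3) first part: the value `0` of `f` is good (G1 + level lemma) -/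
def Good1 {L : Leaf Γ X B} [MeasurableSpace B] [BorelSpace B] (A : Area L) (T : Tens L)
    (k₀ : ℕ) : Prop :=
  ∀ p : Typed A T k₀, GoodLev L p.o.neg p.t.f p.t.χ 0

/-- (P15, 4.4) the exponents of typed orbits take finitely many values -/
def FV {L : Leaf Γ X B} [MeasurableSpace B] [BorelSpace B] (A : Area L) (T : Tens L)
    (k₀ : ℕ) : Prop :=
  {χ : ℝ | ∃ p : Typed A T k₀, p.t.χ = χ}.Finite

end Vale.Agent.P207.N3
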