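import Vale.Agent.P207.N3.H265.GeoX
import Vale.Agent.P207.N3.H266.TensG
import Vale.Agent.P207.N3.Top.Defs

/-!
# P207, line N3: the input of the logic

`Suite L V` : everything which the geometry (118) supplies for one base point.
-/

open Set Filter Topology Metric MeasureTheory
open scoped ContDiff

noncomputable section

namespace Vale.Agent.P207.N3

variable {Γ X B : Type} [Group Γ] [MetricSpace X] [ProperSpace X] [MulAction Γ X]
  [IsIsometricSMul Γ X] [TopologicalSpace B] [CompactSpace B] [T2Space B] [MulAction Γ B]
  [ContinuousConstSMul Γ B]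

/-- the geometric input of the logic -/
structure Suite (L : Leaf Γ X B) [MeasurableSpace B] [BorelSpace B] (V : Type)
    [NormedAddCommGroup V] [NormedSpace ℝ V] [FiniteDimensional ℝ V] where
  A : Area L
  M : Metr L
  I : H722.GeoIn L V
  X : GeoX I
  H : H722.HessIn I M
  F : Fiber L
  /-- the normalisation of the areas -/
  norm : ∀ x, A.s x 0 * A.s (L.flip x) 0 = I.r₀ ^ 4 * (M.U x + M.U (L.flip x)).det

/-- the tensor of the stable subspaces -/
def Suite.T {L : Leaf Γ X B} [MeasurableSpace B] [BorelSpace B] {V : Type}
    [NormedAddCommGroup V] [NormedSpace ℝ V] [FiniteDimensional ℝ V] (S : Suite L V) : Tens L :=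
  Ten.tens S.M

end Vale.Agent.P207.N3
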