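import Vale.Agent.P207.N3.Top.Orb

/-!
# P207, line N3: the return map of a closed orbit and its normal form

`R1 M`: the two eigenvalues of `M` have the same modulus. `Nor.split_iff`: `r > 1` for the normal
form if and only if `R1` fails for the derivative of the return map.
-/

open Set Filter Topology Metric MeasureTheory
open scoped ContDiff

noncomputable section

namespace Vale.Agent.P207.N3

open H790 (NF)

variable {Γ X B : Type} [Group Γ] [MetricSpace X] [ProperSpace X] [MulAction Γ X]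
  [IsIsometricSMul Γ X] [TopologicalSpace B] [CompactSpace B] [T2Space B] [MulAction Γ B]
  [ContinuousConstSMul Γ B]

/-- the trace of a linear map of the plane -/
def tr2 (M : E2 →L[ℝ] E2) : ℝ := LinearMap.trace ℝ E2 (M : E2 →ₗ[ℝ] E2)

/-- the eigenvalues of `M` have equal moduli -/
def R1 (M : E2 →L[ℝ] E2) : Prop := tr2 M ^ 2 ≤ 4 * |M.det| ∧ (M.det < 0 → tr2 M = 0)

/-- the matrix of a linear map of the plane -/
def mx (M : E2 →L[ℝ] E2) : Matrix (Fin 2) (Fin 2) ℝ :=
  LinearMap.toMatrix (EuclideanSpace.basisFun (Fin 2) ℝ).toBasis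
    (EuclideanSpace.basisFun (Fin 2) ℝ).toBasis (M : E2 →ₗ[ℝ] E2)

theorem tr2_eq (M : E2 →L[ℝ] E2) : tr2 M = (mx M).trace :=
  LinearMap.trace_eq_matrix_trace ℝ _ _

theorem det_eq (M : E2 →L[ℝ] E2) : M.det = (mx M).det := by
  rw [mx, LinearMap.det_toMatrix]
  try rfl

theorem mx_comp (M M' : E2 →L[ℝ] E2) : mx (M.comp M') = mx M * mx M' := by
  unfold mx
  rw [← LinearMap.toMatrix_comp]
  rfl

theorem mx_apply (M : E2 →L[ℝ] E2) (i j : Fin 2) :
    mx M i j = (M (EuclideanSpace.single j 1)) i := by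
  unfold mx
  rw [LinearMap.toMatrix_apply]
  simp

/-- conjugation: if `F = N F M` with `F` invertible, then `M` is conjugate to `N⁻¹` -/
theorem R1_iff_of_conj {F N M : E2 →L[ℝ] E2} (hF : F.det ≠ 0) (h : F = N.comp (F.comp M)) :
    R1 M ↔ R1 N := by
  have h1 : mx F = mx N * (mx F * mx M) := by
    rw [← mx_comp, ← mx_comp, ← h]
  have hFd : (mx F).det ≠ 0 := by rwa [← det_eq]
  have hd : (mx N).det * (mx M).det = 1 := by
    have h2 := congrArg Matrix.det h1
    rw [Matrix.det_mul, Matrix.det_mul] at h2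
    have h3 : (mx F).det * ((mx N).det * (mx M).det) = (mx F).det * 1 := by
      rw [mul_one]
      linear_combination -h2
    exact mul_left_cancel₀ hFd h3
  have hNd : (mx N).det ≠ 0 := left_ne_zero_of_mul_eq_one hd
  have hFu : IsUnit (mx F).det := isUnit_iff_ne_zero.2 hFd
  have hNu : IsUnit (mx N).det := isUnit_iff_ne_zero.2 hNd
  have hM : mx M = (mx F)⁻¹ * ((mx N)⁻¹ * mx F) := by
    have h2 : (mx N)⁻¹ * mx F = mx F * mx M := by
      conv_lhs => rw [h1]
      rw [← mul_assoc, Matrix.nonsing_inv_mul _ hNu, one_mul]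
    rw [h2, ← mul_assoc, Matrix.nonsing_inv_mul _ hFu, one_mul]
  have ht : (mx M).trace * (mx N).det = (mx N).trace := by
    have e1 : (mx M).trace = ((mx N)⁻¹).trace := by
      rw [hM, Matrix.trace_mul_comm, mul_assoc, Matrix.mul_nonsing_inv _ hFu, mul_one]
    have e2 : ((mx N).adjugate).trace = (mx N).trace := by
      rw [Matrix.adjugate_fin_two, Matrix.trace_fin_two_of, Matrix.trace_fin_two]
      ring
    rw [e1, Matrix.inv_def, Matrix.trace_smul, Ring.inverse_eq_inv', e2, smul_eq_mul]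
    field_simp
  unfold R1
  rw [tr2_eq, tr2_eq, det_eq, det_eq, ← ht]
  set n := (mx N).det with hn
  set m := (mx M).det with hm
  set t := (mx M).trace with htt
  have habs : |n| * |m| = 1 := by rw [← abs_mul, hd, abs_one]
  have hnp : 0 < |n| := abs_pos.2 hNd
  have hmp : 0 < |m| := by
    rcases (abs_nonneg m).lt_or_eq with h3 | h3
    · exact h3
    · rw [← h3, mul_zero] at habs
      exact absurd habs zero_ne_one
  have key : t ^ 2 ≤ 4 * |m| ↔ (t * n) ^ 2 ≤ 4 * |n| := by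
    have e1 : (t * n) ^ 2 = t ^ 2 * (|n| * |n|) := by
      rw [abs_mul_abs_self]
      ring
    have e2 : 4 * |n| = (4 * |m|) * (|n| * |n|) := by
      linear_combination (-4 * |n|) * habs
    rw [e1, e2]
    exact (mul_le_mul_iff_of_pos_right (mul_pos hnp hnp)).symm
  have sgn : m < 0 ↔ n < 0 := by
    constructor
    · intro h3
      by_contra h4
      push Not at h4
      nlinarith
    · intro h3
      by_contra h4
      push Not at h4
      nlinarith
  have tz : t = 0 ↔ t * n = 0 := by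
    simp [hNd]
  rw [key, sgn, tz]

/-! ### The linear part of a normal form -/

/-- the linear part of `N` at `0` -/
def linNF (N : NF) : E2 →L[ℝ] E2 := fderiv ℝ N.fn 0

theorem hasFDerivAt_fn (N : NF) (x : E2) : HasFDerivAt N.fn (fderiv ℝ N.fn x) x :=
  (N.contDiff_fn.differentiable (by simp)).differentiableAt.hasFDerivAt

theorem mx_linNF (N : NF) (i j : Fin 2) :
    mx (linNF N) i j = deriv (fun t : ℝ => N.fn (t • EuclideanSpace.single j 1) i) 0 := by
  rw [mx_apply]
  have h1 : HasDerivAt (fun t : ℝ => t • (EuclideanSpace.single j 1 : E2))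
      (EuclideanSpace.single j 1) 0 := by
    simpa using (hasDerivAt_id (0 : ℝ)).smul_const (EuclideanSpace.single j 1 : E2)
  have h2 : HasFDerivAt N.fn (linNF N) ((0 : ℝ) • (EuclideanSpace.single j 1 : E2)) := by
    rw [zero_smul]
    exact hasFDerivAt_fn N 0
  have h3 := h2.comp_hasDerivAt (0 : ℝ) h1
  have h4 := ((EuclideanSpace.proj (𝕜 := ℝ) i).hasFDerivAt).comp_hasDerivAt (0 : ℝ) h3
  exact h4.deriv.symm

theorem mx_linNF_tri {μ₁ μ₂ a : ℝ} {k : ℕ} (h : (NF.tri μ₁ μ₂ a k).OK) :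
    mx (linNF (NF.tri μ₁ μ₂ a k)) 0 0 = μ₁ ∧ mx (linNF (NF.tri μ₁ μ₂ a k)) 1 0 = 0 ∧
      mx (linNF (NF.tri μ₁ μ₂ a k)) 1 1 = μ₂ := by
  refine ⟨?_, ?_, ?_⟩
  · rw [mx_linNF]
    have e : (fun t : ℝ => (NF.tri μ₁ μ₂ a k).fn (t • EuclideanSpace.single 0 1) 0)
        = fun t : ℝ => μ₁ * t + a * 0 ^ k := by
      funext t
      rw [NF.fn_tri_zero]
      simp
    rw [e]
    simpa using ((hasDerivAt_id (0 : ℝ)).const_mul μ₁).add_const (a * 0 ^ k) |>.deriv
  · rw [mx_linNF]
    have e : (fun t : ℝ => (NF.tri μ₁ μ₂ a k).fn (t • EuclideanSpace.single 0 1) 1)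
        = fun _ : ℝ => (0 : ℝ) := by
      funext t
      rw [NF.fn_tri_one]
      simp
    rw [e]
    simp
  · rw [mx_linNF]
    have e : (fun t : ℝ => (NF.tri μ₁ μ₂ a k).fn (t • EuclideanSpace.single 1 1) 1)
        = fun t : ℝ => μ₂ * t := by
      funext t
      rw [NF.fn_tri_one]
      simp
    rw [e]
    simpa using ((hasDerivAt_id (0 : ℝ)).const_mul μ₂).deriv

theorem mx_linNF_cx (c s : ℝ) :
    mx (linNF (NF.cx c s)) 0 0 = c ∧ mx (linNF (NF.cx c s)) 0 1 = -s ∧
      mx (linNF (NF.cx c s)) 1 0 = s ∧ mx (linNF (NF.cx c s)) 1 1 = c := by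
  refine ⟨?_, ?_, ?_, ?_⟩
  · rw [mx_linNF]
    have e : (fun t : ℝ => (NF.cx c s).fn (t • EuclideanSpace.single 0 1) 0)
        = fun t : ℝ => c * t := by
      funext t
      rw [NF.fn_cx_zero]
      simp
    rw [e]
    simpa using ((hasDerivAt_id (0 : ℝ)).const_mul c).deriv
  · rw [mx_linNF]
    have e : (fun t : ℝ => (NF.cx c s).fn (t • EuclideanSpace.single 1 1) 0)
        = fun t : ℝ => -s * t := by
      funext t
      rw [NF.fn_cx_zero]
      simp
    rw [e]
    simpa using ((hasDerivAt_id (0 : ℝ)).const_mul (-s)).deriv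
  · rw [mx_linNF]
    have e : (fun t : ℝ => (NF.cx c s).fn (t • EuclideanSpace.single 0 1) 1)
        = fun t : ℝ => s * t := by
      funext t
      rw [NF.fn_cx_one]
      simp
    rw [e]
    simpa using ((hasDerivAt_id (0 : ℝ)).const_mul s).deriv
  · rw [mx_linNF]
    have e : (fun t : ℝ => (NF.cx c s).fn (t • EuclideanSpace.single 1 1) 1)
        = fun t : ℝ => c * t := by
      funext t
      rw [NF.fn_cx_one]
      simp
    rw [e]
    simpa using ((hasDerivAt_id (0 : ℝ)).const_mul c).deriv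

/-- `r = 1` for the normal form -/
theorem R1_linNF {N : NF} (h : N.OK) : R1 (linNF N) ↔ ¬ N.Split := by
  cases N with
  | tri μ₁ μ₂ a k =>
    obtain ⟨h1, h2, h3⟩ := mx_linNF_tri h
    obtain ⟨g1, g2, -⟩ := h
    unfold R1 H790.NF.Split H790.NF.m1 H790.NF.m2
    rw [tr2_eq, det_eq, Matrix.trace_fin_two, Matrix.det_fin_two, h1, h2, h3, mul_zero, sub_zero]
    simp only [not_lt]
    constructor
    · rintro ⟨a1, a2⟩
      by_cases hs : μ₁ * μ₂ < 0
      · have := a2 hs
        have e : μ₁ = -μ₂ := by linarith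
        rw [e, abs_neg]
      · rw [abs_of_nonneg (not_lt.1 hs)] at a1
        have e : μ₁ = μ₂ := by nlinarith [sq_nonneg (μ₁ - μ₂)]
        rw [e]
    · intro h5
      have h6 : |μ₁| = |μ₂| := le_antisymm h5 g2
      rcases abs_eq_abs.1 h6 with h7 | h7
      · subst h7
        refine ⟨?_, fun h8 => ?_⟩
        · rw [abs_mul_self]
          nlinarith
        · nlinarith
      · subst h7
        refine ⟨?_, fun _ => by ring⟩
        have : (0 : ℝ) ≤ 4 * |-μ₂ * μ₂| := by positivity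
        nlinarith
  | cx c s =>
    obtain ⟨h1, h2, h3, h4⟩ := mx_linNF_cx c s
    unfold R1 H790.NF.Split H790.NF.m1 H790.NF.m2
    rw [tr2_eq, det_eq, Matrix.trace_fin_two, Matrix.det_fin_two, h1, h2, h3, h4]
    simp only [lt_irrefl, not_false_eq_true, iff_true]
    have e : c * c - -s * s = c ^ 2 + s ^ 2 := by ring
    rw [e, abs_of_nonneg (by positivity)]
    refine ⟨?_, fun h5 => ?_⟩
    · nlinarith [sq_nonneg s]
    · nlinarith [sq_nonneg s, sq_nonneg c]

/-! ### The return map -/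

namespace Orb

variable {L : Leaf Γ X B}

/-- near `0` the return map is defined -/
theorem dm_nhds (o : Orb L) : ∀ᶠ u in 𝓝 (0 : E2), u ∈ L.dm (o.β • o.x) o.x := by
  have h0 : (o.β • o.x, L.e o.x 0) ∈ ({p : X × B | p.2 ∈ L.e p.1 '' ball 0 3} : Set (X × B)) := by
    refine ⟨0, by simp, ?_⟩
    rw [L.e_zero, L.e_zero, ep_smul']
    exact o.smul_pos
  have hc : ContinuousAt (fun u : E2 => L.e (o.β • o.x) u) 0 := by
    have h1 := L.e_cont (o.β • o.x, 0) ⟨mem_univ _, by simp⟩
    have h2 : ContinuousWithinAt (fun u : E2 => L.e (o.β • o.x) u) (closedBall 0 3) 0 :=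
      ContinuousWithinAt.comp (t := univ ×ˢ closedBall 0 3) (f := fun u : E2 => (o.β • o.x, u))
        h1 (by fun_prop) (fun u hu => ⟨mem_univ _, hu⟩)
    exact h2.continuousAt (closedBall_mem_nhds _ (by norm_num))
  have hm : (o.x, L.e (o.β • o.x) 0) ∈ ({p : X × B | p.2 ∈ L.e p.1 '' ball 0 3} : Set (X × B)) := by
    refine ⟨0, by simp, ?_⟩
    rw [L.e_zero, L.e_zero, ep_smul']
    exact o.smul_pos.symm
  have h3 : ∀ᶠ u in 𝓝 (0 : E2), (o.x, L.e (o.β • o.x) u) ∈
      ({p : X × B | p.2 ∈ L.e p.1 '' ball 0 3} : Set (X × B)) := by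
    have h4 : ContinuousAt (fun u : E2 => (o.x, L.e (o.β • o.x) u)) 0 :=
      continuousAt_const.prodMk hc
    exact h4 (L.e_open.mem_nhds hm)
  filter_upwards [h3, ball_mem_nhds (0 : E2) (by norm_num : (0:ℝ) < 3)] with u hu hu3
  exact ⟨hu3, hu⟩

theorem e_ret (o : Orb L) {u : E2} (hu : u ∈ L.dm (o.β • o.x) o.x) :
    L.e o.x (o.ret u) = o.β • L.e o.x u := by
  have h1 : L.e (o.β • o.x) u ∈ L.e o.x '' closedBall 0 3 :=
    image_mono ball_subset_closedBall hu.2
  have h2 := Function.invFunOn_eq h1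
  rw [← L.e_smul _ _ _ (ball_subset_closedBall hu.1)]
  exact h2

theorem ret_zero (o : Orb L) : o.ret 0 = 0 := by
  have hu := o.dm_nhds.self_of_nhds
  have h1 := o.e_ret hu
  rw [L.e_zero] at h1
  have h2 : o.ret 0 ∈ closedBall (0 : E2) 3 :=
    Function.invFunOn_mem (image_mono ball_subset_closedBall hu.2)
  apply L.e_inj o.x h2 (by simp)
  rw [h1, L.e_zero]
  exact o.smul_pos

theorem ret_contDiffAt (o : Orb L) : ContDiffAt ℝ ∞ o.ret 0 := by
  have hem : L.em (o.β • o.x) = L.em o.x := by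
    rw [L.em_smul]
    exact o.smul_neg
  exact (L.tau_smooth (o.β • o.x) o.x hem).contDiffAt o.dm_nhds

end Orb

namespace Nor

variable {L : Leaf Γ X B} {o : Orb L}

theorem contDiffAt_xe (n : Nor L o) : ContDiffAt ℝ ∞ (fun u => n.x (L.e o.x u)) 0 :=
  (n.smooth o.x rfl).contDiffAt (ball_mem_nhds _ (by norm_num))

/-- `D(x ∘ e) = DN(0) ∘ D(x ∘ e) ∘ D ret` at `0` -/
theorem fderiv_conj (n : Nor L o) :
    fderiv ℝ (fun u => n.x (L.e o.x u)) 0 = (linNF n.N).comp
      ((fderiv ℝ (fun u => n.x (L.e o.x u)) 0).comp (fderiv ℝ o.ret 0)) := by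
  set F : E2 → E2 := fun u => n.x (L.e o.x u) with hF
  have h1 : ∀ᶠ u in 𝓝 (0 : E2), F u = n.N.fn (F (o.ret u)) := by
    filter_upwards [o.dm_nhds] with u hu
    have h2 := o.e_ret hu
    have h3 : L.e o.x (o.ret u) ≠ o.neg := by
      rw [h2]
      intro h4
      have h5 : L.e o.x u = o.neg := by
        have h6 := congrArg (fun b => o.β⁻¹ • b) h4
        simp only [inv_smul_smul] at h6
        rw [h6, inv_smul_eq_iff]
        exact o.smul_neg.symm
      exact L.e_ne o.x u (ball_subset_closedBall hu.1) h5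
    have h4 := n.equiv _ h3
    have e1 : F (o.ret u) = n.x (L.e o.x (o.ret u)) := rfl
    rw [e1, ← h4, h2, inv_smul_smul]
  have hd1 : HasFDerivAt o.ret (fderiv ℝ o.ret 0) 0 :=
    (o.ret_contDiffAt.differentiableAt (by simp)).hasFDerivAt
  have hd2 : HasFDerivAt F (fderiv ℝ F 0) (o.ret 0) := by
    rw [o.ret_zero]
    exact (n.contDiffAt_xe.differentiableAt (by simp)).hasFDerivAt
  have hF0 : F (o.ret 0) = 0 := by
    rw [o.ret_zero]
    change n.x (L.e o.x 0) = 0
    rw [L.e_zero]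
    exact n.base
  have hd3 : HasFDerivAt n.N.fn (linNF n.N) (F (o.ret 0)) := by
    rw [hF0]
    exact hasFDerivAt_fn n.N 0
  have hd4 := hd3.comp (0 : E2) (hd2.comp (0 : E2) hd1)
  have hd5 : HasFDerivAt F ((linNF n.N).comp ((fderiv ℝ F 0).comp (fderiv ℝ o.ret 0))) 0 :=
    hd4.congr_of_eventuallyEq h1
  exact hd5.fderiv

/-- **the eigenvalues of the return map have equal moduli iff the normal form does not split** -/
theorem R1_ret_iff (n : Nor L o) : R1 (fderiv ℝ o.ret 0) ↔ ¬ n.N.Split := by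
  have hdet : (fderiv ℝ (fun u => n.x (L.e o.x u)) 0).det ≠ 0 :=
    n.deriv o.x rfl 0 (by simp)
  exact (R1_iff_of_conj hdet n.fderiv_conj).trans (R1_linNF n.ok)

end Nor

end Vale.Agent.P207.N3
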