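import Vale.Agent.P207.N3.Top.Ret
import Vale.Agent.P207.N3.H662.FDefs

/-!
# P207, line N3: the logic of the proof, with the outputs of the packages as hypotheses

`Outs A T` collects the outputs of P4 (normal coordinates), P11 (dichotomy), P12 (smooth case),
P13 (start, types), P14 (good levels), P15 (ratio lemma), P16, P17 (rough case), PA (all closed
orbits have `r = 1`). `caseI_of_outs`: they imply the input of P8.
-/

open Set Filter Topology Metric MeasureTheory
open scoped ContDiff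

noncomputable section

namespace Vale.Agent.P207.N3

open H790 (NF)

variable {Γ X B : Type} [Group Γ] [MetricSpace X] [ProperSpace X] [MulAction Γ X]
  [IsIsometricSMul Γ X] [TopologicalSpace B] [CompactSpace B] [T2Space B] [MulAction Γ B]
  [ContinuousConstSMul Γ B]

/-- the special typed orbits: S, scalar, or F with `r < 2` -/
def Typed.Special {L : Leaf Γ X B} [MeasurableSpace B] [BorelSpace B] {A : Area L} {T : Tens L}
    {k₀ : ℕ} (p : Typed A T k₀) : Prop :=
  p.t.IsS ∨ p.t.IsC ∨ (p.t.IsF ∧ p.t.n.lam1 < 2 * p.t.n.lam2)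

/-- the values of the level function at which the level lemma holds are dense -/
def Typed.DenseGood {L : Leaf Γ X B} [MeasurableSpace B] [BorelSpace B] {A : Area L} {T : Tens L}
    {k₀ : ℕ} (p : Typed A T k₀) : Prop :=
  Dense {s : ℝ | GoodLev L p.o.neg p.t.f p.t.χ s}

/-- **the outputs of the packages** -/
structure Outs {L : Leaf Γ X B} [MeasurableSpace B] [BorelSpace B] (A : Area L) (T : Tens L) :
    Prop where
  /-- P4 (790) -/
  nor : ∀ o : Orb L, Nonempty (Nor L o)
  /-- P11 (469) -/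
  dich : Dichotomy T
  /-- P12 (442, 576, 908) -/
  smooth_false : SmoothAlt T → ∀ (o : Orb L) (n : Nor L o), ¬ n.N.Split
  /-- P13, 4.1 (80, 476) -/
  start : ∀ k₀, Rough T k₀ → ∀ (o : Orb L) (n : Nor L o), n.N.Split → ∀ k : ℕ, Start T k
  /-- P13T, 4.2 (503, 854) -/
  types : ∀ k₀, Rough T k₀ → (∀ k : ℕ, Start T k) → Types A T k₀
  /-- P14, 4.3 (476, 738): the value `0` is good -/
  good1 : ∀ k₀, Rough T k₀ → Good1 A T k₀
  /-- P14, 4.3 (738, 476): good values are dense for the special types -/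
  good2 : ∀ k₀, Rough T k₀ → Types A T k₀ → ∀ p : Typed A T k₀, p.Special → p.DenseGood
  /-- bounds of the exponents (854) -/
  chi : ∀ k₀, Rough T k₀ → ∀ p : Typed A T k₀, 0 < p.t.χ ∧ p.t.χ ≤ A.h
  /-- P15, 4.4 (828): the ratio lemma -/
  ratio : ∀ k₀, Rough T k₀ → ∀ p q : Typed A T k₀, GoodLev L p.o.neg p.t.f p.t.χ 0 →
    q.DenseGood → ∃ i j : ℕ, 1 ≤ i ∧ 1 ≤ j ∧ i * L.χ ≤ p.t.χ ∧ j * L.χ ≤ q.t.χ ∧
      j * p.t.χ = i * q.t.χ
  /-- P16, 4.5 (319): if not all orbits are of type F -/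
  case1 : ∀ k₀, Rough T k₀ → Types A T k₀ → ((∃ p : Typed A T k₀, p.Special) → FV A T k₀) →
    ∀ p : Typed A T k₀, p.t.IsF
  /-- P17, 4.6 (319, 547, 143): not all orbits are of type F -/
  case2 : ∀ k₀, Rough T k₀ → Types A T k₀ → (∀ p : Typed A T k₀, p.t.IsF) → False
  /-- Part A (310, 969): all closed orbits have `r = 1` -/
  partA : (∀ (o : Orb L) (n : Nor L o), ¬ n.N.Split) → Nonempty (H662.CaseI L A)

variable {L : Leaf Γ X B} [MeasurableSpace B] [BorelSpace B] {A : Area L} {T : Tens L}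

/-- the corollary of 4.4 -/
theorem Outs.fv (O : Outs A T) {k₀ : ℕ} (hR : Rough T k₀) (hT : Types A T k₀)
    (h : ∃ p : Typed A T k₀, p.Special) : FV A T k₀ := by
  obtain ⟨q, hq⟩ := h
  have hd := O.good2 k₀ hR hT q hq
  obtain ⟨M, hM⟩ := exists_nat_ge (A.h / L.χ)
  have hbd : ∀ (i : ℕ) (x : ℝ), i * L.χ ≤ x → x ≤ A.h → i ≤ M := by
    intro i x h1 h2
    have h3 : (i : ℝ) ≤ A.h / L.χ := by
      rw [le_div_iff₀ L.χ_pos]
      linarith
    exact_mod_cast h3.trans hM
  refine Set.Finite.subset (s := (fun ij : ℕ × ℕ => (ij.1 : ℝ) * q.t.χ / ij.2) ''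
    (Set.Iic M ×ˢ Set.Iic M)) (((finite_Iic M).prod (finite_Iic M)).image _) ?_
  rintro χ ⟨p, rfl⟩
  obtain ⟨i, j, hi, hj, h1, h2, h3⟩ := O.ratio k₀ hR p q (O.good1 k₀ hR p) hd
  refine ⟨(i, j), ⟨hbd i _ h1 (O.chi k₀ hR p).2, hbd j _ h2 (O.chi k₀ hR q).2⟩, ?_⟩
  have hj' : (j : ℝ) ≠ 0 := by
    have : 0 < j := hj
    positivity
  simp only
  rw [div_eq_iff hj']
  linarith

/-- the rough alternative is impossible if some closed orbit has `r > 1` -/
theorem Outs.rough_false (O : Outs A T) {k₀ : ℕ} (hR : Rough T k₀) (o : Orb L) (n : Nor L o)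
    (hn : n.N.Split) : False := by
  have hS := O.start k₀ hR o n hn
  have hT := O.types k₀ hR hS
  exact O.case2 k₀ hR hT (O.case1 k₀ hR hT (O.fv hR hT))

/-- no closed orbit has `r > 1` -/
theorem Outs.no_split (O : Outs A T) (o : Orb L) (n : Nor L o) : ¬ n.N.Split := by
  intro hn
  rcases O.dich with h | ⟨k₀, h⟩
  · exact O.smooth_false h o n hn
  · exact O.rough_false h o n hn

/-- **the conclusion of Parts A - 4: the input of P8** -/
theorem Outs.caseI (O : Outs A T) : Nonempty (H662.CaseI L A) :=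
  O.partA O.no_split

end Vale.Agent.P207.N3
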