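import Vale.Agent.P207.N3.Top.Logic
import Vale.Agent.P207.N3.H828.Out
import Vale.Agent.P207.N3.H476.Good1
import Vale.Agent.P207.N3.H790.Glob
import Vale.Agent.P207.N3.H310.PartA
import Vale.Agent.P207.N3.H319.Fin
import Vale.Agent.P207.N3.H469.Sm
import Vale.Agent.P207.N3.H854.Chi
import Vale.Agent.P207.N3.H503.Types
import Vale.Agent.P207.N3.H545.LimDir
import Vale.Agent.P207.N3.H158.Good2
import Vale.Agent.P207.N3.H905.RegD

/-!
# P207, line N3: assembly of the logic

`Rem A T` : what remains to be supplied for `Outs A T` (the other fields are theorems by now).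
-/

open Set Filter Topology Metric MeasureTheory
open scoped ContDiff

noncomputable section

namespace Vale.Agent.P207.N3

open H790 (NF)

variable {Γ X B : Type} [Group Γ] [MetricSpace X] [ProperSpace X] [MulAction Γ X]
  [IsIsometricSMul Γ X] [TopologicalSpace B] [CompactSpace B] [T2Space B] [MulAction Γ B]
  [ContinuousConstSMul Γ B]

/-- **the remaining inputs** -/
structure Rem {L : Leaf Γ X B} [MeasurableSpace B] [BorelSpace B] (A : Area L) (T : Tens L) :
    Prop where
  /-- P4b (147, 790) -/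
  p4 : H319.P4b L
  /-- P12 (442, 576, 728, 828, 908, 289, 266) -/
  smooth_false : SmoothAlt T → ∀ (o : Orb L) (n : Nor L o), ¬ n.N.Split
  /-- P13 (80, 476) -/
  start : ∀ k₀, Rough T k₀ → ∀ (o : Orb L) (n : Nor L o), n.N.Split → ∀ k : ℕ, Start T k
  /-- P3, P10, LINK (12) -/
  hdiv : ∀ (o : Orb L) (n : Nor L o), (∃ μ₁ μ₂ a k, n.N = .tri μ₁ μ₂ a k) → Nonempty (DivIn T n)
  /-- P17, 4.6 (ii), (iii) (547, 143) -/
  case2 : ∀ k₀, Rough T k₀ → Types A T k₀ → (∀ p : Typed A T k₀, p.t.IsF) → ∀ c,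
    H319.P4c L c → ∀ o₀ : Orb L, (∀ o : Orb L, o.lam = o₀.lam → ∀ (n : Nor L o)
      (W : H147.Fwd o n.x n.N.fn c) (k : Γ), k • o.pos ≠ o.neg →
      (W.Bm k (EuclideanSpace.single 0 1)) 0 ≠ 0) → False

variable {L : Leaf Γ X B} [MeasurableSpace B] [BorelSpace B] {A : Area L} {T : Tens L}

theorem P4b.out {L : Leaf Γ X B} (h : H319.P4b L) : H310.P4Out L := by
  obtain ⟨c, hc, h⟩ := h
  refine ⟨c, hc, fun o n => ?_⟩
  obtain ⟨⟨W⟩, h2⟩ := h o n
  exact ⟨W, h2 W⟩

/-- regularity of the homoclinics of S, C (905) -/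
theorem regS_out {k₀ : ℕ} (hR : Rough T k₀) (c : ℝ) : H319.RegS A T k₀ c := by
  rintro p W k (h | h) hk
  · obtain ⟨s, hs, h1⟩ := H905.reg_S hR p.t h W hk
    refine ⟨s, hs, fun v => ?_⟩
    have h2 := congrArg (fun f : E2 →L[ℝ] ℝ => f v) h1
    simp only [ContinuousLinearMap.comp_apply, ContinuousLinearMap.smul_apply, H969.lin_apply,
      one_mul, zero_mul, add_zero, smul_eq_mul] at h2
    rw [h.2.2.1]
    exact h2
  · obtain ⟨s, hs, h1⟩ := H905.reg_C hR p.t h W hk
    refine ⟨s, hs, fun v => ?_⟩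
    have h2 := congrArg (fun f : E2 →L[ℝ] ℝ => f v) h1
    simp only [ContinuousLinearMap.comp_apply, ContinuousLinearMap.smul_apply, H969.lin_apply,
      one_mul, zero_mul, zero_add, smul_eq_mul] at h2
    rw [h.2.1]
    exact h2

/-- regularity of the homoclinics of F with `r < 2` (905) -/
theorem regF_out {k₀ : ℕ} (hR : Rough T k₀) (c : ℝ) : H319.RegF A T k₀ c :=
  fun p W _ h h' hk => H905.reg_F hR p.t h h' W hk

/-- the outputs of the packages, from the remaining inputs -/
theorem Rem.outs (R : Rem A T) : Outs A T where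
  nor := H790.exists_nor L
  dich := H469.dichotomy T
  smooth_false := R.smooth_false
  start := R.start
  types := H503.types_of A T (H790.exists_nor L) R.hdiv fun hS => H545.limDir T hS fun o n => by
    obtain ⟨c, h4⟩ := R.p4
    exact ⟨c, (h4.2 o n).1⟩
  good1 := fun _ hR => H476.good1 hR fun p => ⟨H854.chi_pos p, H854.chi_le p⟩
  good2 := H158.out_good2 A T fun o n => by
    obtain ⟨c, h4⟩ := R.p4
    exact ⟨c, (h4.2 o n).1⟩
  chi := fun _ _ p => ⟨H854.chi_pos p, H854.chi_le p⟩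
  ratio := H828.out_ratio A T
  case1 := H319.case1_out R.p4 fun _ hR c _ => regS_out hR c
  case2 := by
    intro k₀ hR hT hF
    obtain ⟨c, h4⟩ := R.p4
    obtain ⟨o⟩ := H310.exists_orb L
    obtain ⟨o₀, h₀⟩ := H319.regular_out h4 (regF_out hR c) o hT hF
    exact R.case2 k₀ hR hT hF c h4 o₀ h₀
  partA := H310.partA A (H790.exists_nor L) (P4b.out R.p4)

end Vale.Agent.P207.N3
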